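import Mathlib
import Vale.Agent.H27.PoissonFact

/-!
# Scaling, the `j`-trick and translation for the one-body + pair partition functions

For the definitions `wt`, `Zc`, `Xi` of `Vale.Agent.H27.PF`:
* `Zc_smul`: constants `c` (one-body) and `d` (ordered pairs) come out as `c ^ N * d ^ (N * (N - 1))`;
* `Xi_jtrick`: a factor `exp (γ N²)` is bounded by a Gaussian sum over shifted activities;
* `Xi_translate`: invariance under translations for a right-invariant measure.
-/

namespace Vale.Agent.H72.P171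

open MeasureTheory ENNReal
open Vale.Agent.H27.PF



section Scale

variable {E : Type*} [MeasurableSpace E]

omit [MeasurableSpace E] in
/-- Pointwise scaling of the weight of a configuration. -/
theorem wt_smul (c d : ℝ≥0∞) (w : E → ℝ≥0∞) (psi : E → E → ℝ≥0∞) {I : Type*} [Fintype I]
    [DecidableEq I] (x : I → E) :
    wt (fun p => c * w p) (fun p q => d * psi p q) x =
      c ^ Fintype.card I * d ^ (Fintype.card I * (Fintype.card I - 1)) * wt w psi x := by
  unfold wt
  have h1 : ∏ i, c * w (x i) = c ^ Fintype.card I * ∏ i, w (x i) := by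
    rw [Finset.prod_mul_distrib, Finset.prod_const, Finset.card_univ]
  have h2 : ∀ i : I, (∏ j, if i = j then (1 : ℝ≥0∞) else d * psi (x i) (x j)) =
      d ^ (Fintype.card I - 1) * ∏ j, if i = j then 1 else psi (x i) (x j) := by
    intro i
    have h3 : ∀ j : I, (if i = j then (1 : ℝ≥0∞) else d * psi (x i) (x j)) =
        (if i = j then 1 else d) * (if i = j then 1 else psi (x i) (x j)) := by
      intro j
      by_cases h : i = j <;> simp [h]
    simp_rw [h3]
    rw [Finset.prod_mul_distrib]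
    congr 1
    rw [Finset.prod_ite]
    simp only [Finset.prod_const_one, one_mul, Finset.prod_const]
    congr 1
    have : (Finset.univ.filter fun j : I => ¬ i = j) = Finset.univ.erase i := by
      ext j
      simp [eq_comm]
    rw [this, Finset.card_erase_of_mem (Finset.mem_univ i), Finset.card_univ]
  simp_rw [h2]
  rw [h1, Finset.prod_mul_distrib, Finset.prod_const, Finset.card_univ, ← pow_mul]
  ring

/-- Scaling of the canonical partition function, finite constants (no measurability). -/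
theorem Zc_smul (nu : Measure E) (c d : ℝ≥0∞) (hc : c ≠ ⊤) (hd : d ≠ ⊤) (w : E → ℝ≥0∞)
    (psi : E → E → ℝ≥0∞) (N : ℕ) :
    Zc nu (fun p => c * w p) (fun p q => d * psi p q) N =
      c ^ N * d ^ (N * (N - 1)) * Zc nu w psi N := by
  unfold Zc Zι
  simp_rw [wt_smul, Fintype.card_fin]
  rw [lintegral_const_mul']
  exact ENNReal.mul_ne_top (ENNReal.pow_ne_top hc) (ENNReal.pow_ne_top hd)

/-- Scaling of the one-body weight only. -/
theorem Zc_smul_left (nu : Measure E) (c : ℝ≥0∞) (hc : c ≠ ⊤) (w : E → ℝ≥0∞)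
    (psi : E → E → ℝ≥0∞) (N : ℕ) :
    Zc nu (fun p => c * w p) psi N = c ^ N * Zc nu w psi N := by
  have h := Zc_smul nu c 1 hc ENNReal.one_ne_top w psi N
  simpa using h

/-- The exponent identity behind the `j`-trick. -/
theorem exp_sq_le_tsum (γ : ℝ) (N : ℕ) :
    ENNReal.ofReal (Real.exp γ) ^ N * ENNReal.ofReal (Real.exp γ) ^ (N * (N - 1)) ≤
      ∑' j : ℕ, ENNReal.ofReal (Real.exp (-(γ * (j : ℝ) ^ 2))) *
        ENNReal.ofReal (Real.exp (2 * γ * j)) ^ N := by
  have hterm : ENNReal.ofReal (Real.exp γ) ^ N * ENNReal.ofReal (Real.exp γ) ^ (N * (N - 1)) =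
      ENNReal.ofReal (Real.exp (-(γ * (N : ℝ) ^ 2))) *
        ENNReal.ofReal (Real.exp (2 * γ * N)) ^ N := by
    rw [← pow_add, ← ENNReal.ofReal_pow (Real.exp_pos _).le,
      ← ENNReal.ofReal_pow (Real.exp_pos _).le,
      ← ENNReal.ofReal_mul (Real.exp_pos _).le, ← Real.exp_nat_mul, ← Real.exp_nat_mul,
      ← Real.exp_add]
    congr 2
    have hN : N + N * (N - 1) = N * N := by
      cases N with
      | zero => rfl
      | succ n => simp [Nat.succ_mul]; ring
    rw [hN]
    push_cast
    ring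
  rw [hterm]
  exact ENNReal.le_tsum N

/-- The `j`-trick: a factor `exp (γ N²)` (one-body factor `exp γ` and pair factor `exp γ`
for every ordered pair) is bounded by a Gaussian sum over shifts of the activity. -/
theorem Xi_jtrick (nu : Measure E) (c : ℝ≥0∞) (hc : c ≠ ⊤) (γ : ℝ) (w : E → ℝ≥0∞)
    (psi : E → E → ℝ≥0∞) :
    Xi nu (fun p => c * ENNReal.ofReal (Real.exp γ) * w p)
        (fun p q => ENNReal.ofReal (Real.exp γ) * psi p q) ≤
      ∑' j : ℕ, ENNReal.ofReal (Real.exp (-(γ * (j : ℝ) ^ 2))) *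
        Xi nu (fun p => c * ENNReal.ofReal (Real.exp (2 * γ * j)) * w p) psi := by
  unfold Xi
  have hL : ∀ N : ℕ, Zc nu (fun p => c * ENNReal.ofReal (Real.exp γ) * w p)
      (fun p q => ENNReal.ofReal (Real.exp γ) * psi p q) N =
      c ^ N * (ENNReal.ofReal (Real.exp γ) ^ N * ENNReal.ofReal (Real.exp γ) ^ (N * (N - 1))) *
        Zc nu w psi N := by
    intro N
    rw [Zc_smul nu (c * ENNReal.ofReal (Real.exp γ)) (ENNReal.ofReal (Real.exp γ))
      (ENNReal.mul_ne_top hc ENNReal.ofReal_ne_top) ENNReal.ofReal_ne_top w psi N, mul_pow]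
    ring
  have hR : ∀ (j N : ℕ), Zc nu (fun p => c * ENNReal.ofReal (Real.exp (2 * γ * j)) * w p) psi N =
      c ^ N * ENNReal.ofReal (Real.exp (2 * γ * j)) ^ N * Zc nu w psi N := by
    intro j N
    rw [Zc_smul_left nu (c * ENNReal.ofReal (Real.exp (2 * γ * j)))
      (ENNReal.mul_ne_top hc ENNReal.ofReal_ne_top) w psi N, mul_pow]
  simp_rw [hL, hR, ← ENNReal.tsum_mul_left]
  rw [ENNReal.tsum_comm]
  apply ENNReal.tsum_le_tsum
  intro N
  calc ((N.factorial : ℝ≥0∞))⁻¹ * (c ^ N * (ENNReal.ofReal (Real.exp γ) ^ N *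
          ENNReal.ofReal (Real.exp γ) ^ (N * (N - 1))) * Zc nu w psi N)
      ≤ ((N.factorial : ℝ≥0∞))⁻¹ * (c ^ N * (∑' j : ℕ, ENNReal.ofReal (Real.exp (-(γ * (j : ℝ) ^ 2))) *
          ENNReal.ofReal (Real.exp (2 * γ * j)) ^ N) * Zc nu w psi N) := by
        gcongr
        exact exp_sq_le_tsum γ N
    _ = ∑' j : ℕ, ENNReal.ofReal (Real.exp (-(γ * (j : ℝ) ^ 2))) *
          (((N.factorial : ℝ≥0∞))⁻¹ * (c ^ N * ENNReal.ofReal (Real.exp (2 * γ * j)) ^ N *
            Zc nu w psi N)) := by
        rw [← ENNReal.tsum_mul_left, ← ENNReal.tsum_mul_right, ← ENNReal.tsum_mul_left]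
        congr 1
        funext j
        ring

end Scale

section Translate

variable {E : Type*} [MeasurableSpace E] [AddCommGroup E] [MeasurableAdd E]

/-- Translation invariance of the canonical partition function. -/
theorem Zc_translate (nu : Measure E) [SigmaFinite nu] [nu.IsAddRightInvariant] (h : E)
    (w : E → ℝ≥0∞) (psi : E → E → ℝ≥0∞) (N : ℕ) :
    Zc nu (fun p => w (p + h)) (fun p q => psi (p + h) (q + h)) N = Zc nu w psi N := by
  unfold Zc Zι
  have h1 : ∀ x : Fin N → E, wt (fun p => w (p + h)) (fun p q => psi (p + h) (q + h)) x =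
      wt w psi (x + fun _ => h) := by
    intro x
    rfl
  simp_rw [h1]
  exact lintegral_add_right_eq_self (μ := Measure.pi fun _ : Fin N => nu)
    (fun x => wt w psi x) (fun _ => h)

/-- Translation invariance of the grand canonical partition function. -/
theorem Xi_translate (nu : Measure E) [SigmaFinite nu] [nu.IsAddRightInvariant] (h : E)
    (w : E → ℝ≥0∞) (psi : E → E → ℝ≥0∞) :
    Xi nu (fun p => w (p + h)) (fun p q => psi (p + h) (q + h)) = Xi nu w psi := by
  unfold Xi
  simp_rw [Zc_translate]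

/-- Translation invariance for Lebesgue measure on Euclidean 3-space. -/
theorem Xi_translate_E3 (h : EuclideanSpace ℝ (Fin 3))
    (w : EuclideanSpace ℝ (Fin 3) → ℝ≥0∞)
    (psi : EuclideanSpace ℝ (Fin 3) → EuclideanSpace ℝ (Fin 3) → ℝ≥0∞) :
    Xi (volume : Measure (EuclideanSpace ℝ (Fin 3))) (fun p => w (p + h))
      (fun p q => psi (p + h) (q + h)) = Xi volume w psi :=
  Xi_translate volume h w psi

end Translate

end Vale.Agent.H72.P171
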